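import Mathlib

/-! Fourier analysis on the biased discrete cube. -/

namespace Vale.Agent.P063

open Finset Function

set_option linter.unusedSectionVars false

variable {ι : Type} [Fintype ι] [DecidableEq ι]

def w1 (p : ℝ) (b : Bool) : ℝ := if b then p else 1 - p
def wt (p : ℝ) (x : ι → Bool) : ℝ := ∏ i, w1 p (x i)
def Ex (p : ℝ) (g : (ι → Bool) → ℝ) : ℝ := ∑ x, wt p x * g x
def ps (p : ℝ) (b : Bool) : ℝ := if b then 1 - p else -p
def psi (p : ℝ) (S : Finset ι) (x : ι → Bool) : ℝ := ∏ i ∈ S, ps p (x i)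
def co (p : ℝ) (g : (ι → Bool) → ℝ) (S : Finset ι) : ℝ := Ex p fun x => g x * psi p S x
def sg (p : ℝ) : ℝ := p * (1 - p)
noncomputable def W (p : ℝ) (g : (ι → Bool) → ℝ) (S : Finset ι) : ℝ := co p g S ^ 2 / sg p ^ S.card
def D (e : ι) (g : (ι → Bool) → ℝ) (x : ι → Bool) : ℝ := g (update x e true) - g (update x e false)
def Inf (p : ℝ) (e : ι) (g : (ι → Bool) → ℝ) : ℝ := Ex p fun x => D e g x ^ 2

variable {p : ℝ}

lemma Ex_prod (k : ι → Bool → ℝ) :
    Ex p (fun x => ∏ i, k i (x i)) = ∏ i, (p * k i true + (1 - p) * k i false) := by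
  have := Finset.prod_univ_sum (fun _ : ι => (univ : Finset Bool)) (fun i b => w1 p b * k i b)
  simp only [Fintype.piFinset_univ, prod_mul_distrib] at this
  unfold Ex wt
  rw [← this]
  simp [w1]

lemma Ex_const (c : ℝ) : Ex p (fun _ : ι → Bool => c) = c := by
  have := Ex_prod (ι := ι) (p := p) (fun _ _ => 1)
  simp only [prod_const_one, mul_one, add_sub_cancel] at this
  unfold Ex at *
  simp only [mul_one] at this
  rw [← sum_mul, this, one_mul]

lemma Ex_add (f g : (ι → Bool) → ℝ) : Ex p (fun x => f x + g x) = Ex p f + Ex p g := by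
  simp [Ex, mul_add, sum_add_distrib]

lemma Ex_mul (c : ℝ) (f : (ι → Bool) → ℝ) : Ex p (fun x => c * f x) = c * Ex p f := by
  simp [Ex, mul_sum, mul_left_comm]

lemma Ex_sum {κ : Type} (s : Finset κ) (f : κ → (ι → Bool) → ℝ) :
    Ex p (fun x => ∑ k ∈ s, f k x) = ∑ k ∈ s, Ex p (f k) := by
  simp only [Ex, mul_sum]; rw [sum_comm]

lemma wt_nonneg (h0 : 0 ≤ p) (h1 : p ≤ 1) (x : ι → Bool) : 0 ≤ wt p x :=
  prod_nonneg fun i _ => by unfold w1; split_ifs <;> linarith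

lemma Ex_mono (h0 : 0 ≤ p) (h1 : p ≤ 1) {f g : (ι → Bool) → ℝ} (h : ∀ x, f x ≤ g x) :
    Ex p f ≤ Ex p g :=
  sum_le_sum fun x _ => mul_le_mul_of_nonneg_left (h x) (wt_nonneg h0 h1 x)

lemma Ex_nonneg (h0 : 0 ≤ p) (h1 : p ≤ 1) {f : (ι → Bool) → ℝ} (h : ∀ x, 0 ≤ f x) : 0 ≤ Ex p f :=
  sum_nonneg fun x _ => mul_nonneg (wt_nonneg h0 h1 x) (h x)

lemma Ex_cs (h0 : 0 ≤ p) (h1 : p ≤ 1) (f g : (ι → Bool) → ℝ) :
    Ex p (fun x => f x * g x) ^ 2 ≤ Ex p (fun x => f x ^ 2) * Ex p (fun x => g x ^ 2) :=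
  sum_sq_le_sum_mul_sum_of_sq_le_mul _ (fun x _ => mul_nonneg (wt_nonneg h0 h1 x) (sq_nonneg _))
    (fun x _ => mul_nonneg (wt_nonneg h0 h1 x) (sq_nonneg _)) fun x _ => le_of_eq (by ring)

lemma Ex_pw (A : Finset ι) (G : (ι → Bool) → ℝ) :
    Ex p (fun y => Ex p fun z => G (A.piecewise z y)) = Ex p G := by
  obtain ⟨e, he⟩ : ∃ e : (ι → Bool) × (ι → Bool) ≃ (ι → Bool) × (ι → Bool),
      ∀ q, e q = (A.piecewise q.2 q.1, A.piecewise q.1 q.2) :=
    ⟨Function.Involutive.toPerm (fun q => (A.piecewise q.2 q.1, A.piecewise q.1 q.2)) (by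
      rintro ⟨y, z⟩
      ext i <;> by_cases h : i ∈ A <;> simp [h]), fun _ => rfl⟩
  have h1 : ∀ q : (ι → Bool) × (ι → Bool), wt p (e q).1 * wt p (e q).2 = wt p q.1 * wt p q.2 := by
    rintro ⟨y, z⟩
    simp only [wt, ← prod_mul_distrib, he]
    refine prod_congr rfl fun i _ => ?_
    by_cases h : i ∈ A <;> simp [h, mul_comm]
  have h2 := Equiv.sum_comp e (fun q => wt p q.1 * wt p q.2 * G q.1)
  simp only [h1] at h2
  simp only [he, Fintype.sum_prod_type] at h2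
  have h3 : ∑ x : ι → Bool, wt p x = 1 := by simpa [Ex] using Ex_const (ι := ι) (p := p) 1
  simp only [Ex, mul_sum, ← mul_assoc]
  rw [h2]
  refine sum_congr rfl fun x _ => ?_
  rw [← sum_mul, ← mul_sum, h3, mul_one]

lemma Ex_coord (e : ι) (k : Bool → ℝ) :
    Ex p (fun x : ι → Bool => k (x e)) = p * k true + (1 - p) * k false := by
  have := Ex_prod (p := p) (fun i b => if i = e then k b else 1)
  simp only [prod_ite_eq', mem_univ, if_true] at this
  rw [this, prod_eq_single e]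
  · simp
  · intro i _ hi; simp [hi]
  · simp

lemma Ex_split (e : ι) (F : (ι → Bool) → ℝ) :
    Ex p F = Ex p fun x => p * F (update x e true) + (1 - p) * F (update x e false) := by
  rw [← Ex_pw {e} F]
  congr 1
  ext y
  simp only [piecewise_singleton]
  exact Ex_coord e fun b => F (update y e b)

lemma psi_update {S : Finset ι} {e : ι} (h : e ∉ S) (x : ι → Bool) (b : Bool) :
    psi p S (update x e b) = psi p S x :=
  prod_congr rfl fun i hi => by rw [update_of_ne (ne_of_mem_of_not_mem hi h)]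

lemma psi_insert {S : Finset ι} {e : ι} (h : e ∉ S) (x : ι → Bool) :
    psi p (insert e S) x = ps p (x e) * psi p S x := prod_insert h

lemma co_insert {S : Finset ι} {e : ι} (h : e ∉ S) (g : (ι → Bool) → ℝ) :
    co p g (insert e S) = sg p * co p (D e g) S := by
  unfold co
  rw [Ex_split e, ← Ex_mul]
  congr 1
  ext x
  simp only [psi_insert h, psi_update h, update_self, ps, D, sg]
  simp
  ring

lemma sg_pos (h0 : 0 < p) (h1 : p < 1) : 0 < sg p := mul_pos h0 (by linarith)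

lemma sg_le (p : ℝ) : sg p ≤ 1 / 4 := by unfold sg; nlinarith [sq_nonneg (p - 1 / 2)]

lemma W_nonneg (h0 : 0 < p) (h1 : p < 1) (g : (ι → Bool) → ℝ) (S : Finset ι) : 0 ≤ W p g S :=
  div_nonneg (sq_nonneg _) (pow_pos (sg_pos h0 h1) _).le

lemma kernel (h0 : 0 < p) (h1 : p < 1) (x y : ι → Bool) :
    wt p x * ∑ S : Finset ι, psi p S x * psi p S y / sg p ^ S.card = if x = y then 1 else 0 := by
  have h2 : ∑ S : Finset ι, psi p S x * psi p S y / sg p ^ S.card =
      ∏ i, (1 + ps p (x i) * ps p (y i) / sg p) := by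
    rw [prod_one_add, powerset_univ]
    refine sum_congr rfl fun S _ => ?_
    simp [psi, prod_mul_distrib, prod_div_distrib]
  have h3 : ∀ a b, w1 p a * (1 + ps p a * ps p b / sg p) = if a = b then 1 else 0 := by
    have : 1 - p ≠ 0 := by linarith
    intro a b
    cases a <;> cases b <;> simp only [w1, ps, sg, Bool.false_eq_true, Bool.true_eq_false,
      if_true, if_false] <;> field_simp <;> ring
  rw [h2, wt, ← prod_mul_distrib]
  simp only [h3, prod_ite_zero, prod_const_one, funext_iff]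
  simp

lemma parseval (h0 : 0 < p) (h1 : p < 1) (g : (ι → Bool) → ℝ) :
    ∑ S, W p g S = Ex p fun x => g x ^ 2 := by
  have : ∀ S, W p g S = ∑ x, ∑ y, wt p y * g x * g y *
      (wt p x * (psi p S x * psi p S y / sg p ^ S.card)) := by
    intro S
    simp only [W, co, Ex, sq, sum_mul_sum, sum_div]
    exact sum_congr rfl fun x _ => sum_congr rfl fun y _ => by ring
  simp only [this]
  rw [sum_comm]
  refine sum_congr rfl fun x _ => ?_
  rw [sum_comm]
  simp only [← mul_sum, kernel h0 h1]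
  simp [sq, mul_assoc]

lemma four_pt (h0 : 0 ≤ p) (h1 : p ≤ 1) (a b : ℝ) :
    p * (a + (1 - p) * b) ^ 4 + (1 - p) * (a + -p * b) ^ 4 ≤ a ^ 4 + 2 * (a ^ 2 * b ^ 2) + b ^ 4 := by
  have hs := sg_le p
  have hs0 : 0 ≤ sg p := mul_nonneg h0 (by linarith)
  have e : p * (a + (1 - p) * b) ^ 4 + (1 - p) * (a + -p * b) ^ 4 = a ^ 4 + 6 * sg p * (a ^ 2 * b ^ 2)
      + sg p * (4 * (1 - 2 * p) * a * b ^ 3) + sg p * (1 - 3 * sg p) * b ^ 4 := by
    unfold sg; ring
  have h2 : 4 * (1 - 2 * p) * a * b ^ 3 ≤ 2 * (a ^ 2 * b ^ 2) + 2 * b ^ 4 := by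
    have h3 : (1 - 2 * p) ^ 2 ≤ 1 := by nlinarith
    nlinarith [sq_nonneg (a * b - (1 - 2 * p) * b ^ 2), mul_le_mul_of_nonneg_right h3 (sq_nonneg (b ^ 2))]
  have h4 := mul_le_mul_of_nonneg_left h2 hs0
  have h5 : 0 ≤ a ^ 2 * b ^ 2 := by positivity
  have h6 : 0 ≤ b ^ 4 := by positivity
  rw [e]
  nlinarith [mul_le_mul_of_nonneg_right hs h5, mul_le_mul_of_nonneg_right hs h6,
    mul_nonneg (mul_nonneg hs0 hs0) h6]

/-- a hypercontractive inequality -/
lemma hyper (h0 : 0 ≤ p) (h1 : p ≤ 1) (A : Finset ι) (b : Finset ι → ℝ) :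
    Ex p (fun x => (∑ S ∈ A.powerset, b S * psi p S x) ^ 4) ≤ (∑ S ∈ A.powerset, b S ^ 2) ^ 2 := by
  induction A using Finset.induction_on generalizing b with
  | empty =>
    simp only [powerset_empty, sum_singleton, psi, prod_empty, mul_one, Ex_const]
    exact le_of_eq (by ring)
  | insert i A hi ih =>
    have i0 := ih b
    have i1 := ih fun S => b (insert i S)
    have hS : ∀ S ∈ A.powerset, i ∉ S := fun S hS h => hi (mem_powerset.mp hS h)
    rw [sum_powerset_insert hi, Ex_split i]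
    have e : ∀ (x : ι → Bool) (c : Bool), ∑ S ∈ (insert i A).powerset, b S * psi p S (update x i c) =
        ∑ S ∈ A.powerset, b S * psi p S x +
          ps p c * ∑ S ∈ A.powerset, b (insert i S) * psi p S x := by
      intro x c
      rw [sum_powerset_insert hi, mul_sum]
      congr 1
      · exact sum_congr rfl fun S h => by rw [psi_update (hS S h)]
      · exact sum_congr rfl fun S h => by
          rw [psi_insert (hS S h), psi_update (hS S h), update_self]; ring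
    simp only [e]
    have hN0 : 0 ≤ ∑ S ∈ A.powerset, b S ^ 2 := sum_nonneg fun _ _ => sq_nonneg _
    have hN1 : 0 ≤ ∑ S ∈ A.powerset, b (insert i S) ^ 2 := sum_nonneg fun _ _ => sq_nonneg _
    generalize ∑ S ∈ A.powerset, b S ^ 2 = N0 at *
    generalize ∑ S ∈ A.powerset, b (insert i S) ^ 2 = N1 at *
    obtain ⟨g0, hg0⟩ : ∃ g0 : (ι → Bool) → ℝ, ∀ x, ∑ S ∈ A.powerset, b S * psi p S x = g0 x :=
      ⟨_, fun _ => rfl⟩
    obtain ⟨g1, hg1⟩ : ∃ g1 : (ι → Bool) → ℝ,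
      ∀ x, ∑ S ∈ A.powerset, b (insert i S) * psi p S x = g1 x := ⟨_, fun _ => rfl⟩
    simp only [hg0, hg1] at *
    have h2 := Ex_mono h0 h1 (fun x => four_pt h0 h1 (g0 x) (g1 x))
    rw [Ex_add (fun x => g0 x ^ 4 + 2 * (g0 x ^ 2 * g1 x ^ 2)), Ex_add (fun x => g0 x ^ 4),
      Ex_mul] at h2
    have h3 := Ex_cs h0 h1 (fun x => g0 x ^ 2) (fun x => g1 x ^ 2)
    simp only [← pow_mul] at h3
    have h4 : Ex p (fun x => g0 x ^ 2 * g1 x ^ 2) ≤ N0 * N1 := by
      refine le_of_sq_le_sq (h3.trans ?_) (mul_nonneg hN0 hN1)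
      rw [mul_pow]
      exact mul_le_mul i0 i1 (Ex_nonneg h0 h1 fun x => Even.pow_nonneg (by decide) _) (sq_nonneg _)
    refine le_trans h2 ?_
    nlinarith

/-- low degree weight of a function with values in `{0, 1, -1}` -/
lemma low_weight (h0 : 0 < p) (h1 : p < 1) {g : (ι → Bool) → ℝ} (hg : ∀ x, g x ^ 3 = g x) (d : ℕ) :
    (∑ S with S.card ≤ d, W p g S) ^ 2 * (sg p ^ d) ^ 2 ≤ Ex p (fun x => g x ^ 2) ^ 3 := by
  have hs := sg_pos h0 h1
  let b : Finset ι → ℝ := fun S => if S.card ≤ d then co p g S / sg p ^ S.card else 0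
  let G : (ι → Bool) → ℝ := fun x => ∑ S, b S * psi p S x
  have hI : 0 ≤ Ex p (fun x => g x ^ 2) := Ex_nonneg h0.le h1.le fun x => sq_nonneg _
  have hΛ0 : 0 ≤ ∑ S with S.card ≤ d, W p g S := sum_nonneg fun S _ => W_nonneg h0 h1 g S
  have e1 : ∑ S with S.card ≤ d, W p g S = Ex p fun x => g x * (g x ^ 2 * G x) := by
    have : ∀ x, g x * (g x ^ 2 * G x) = ∑ S, b S * (g x * psi p S x) := by
      intro x
      rw [← mul_assoc, ← pow_succ', hg, mul_sum]
      exact sum_congr rfl fun S _ => by ring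
    simp only [this, Ex_sum, Ex_mul, sum_filter]
    refine sum_congr rfl fun S _ => ?_
    simp only [b, W]
    split_ifs
    · unfold co; ring
    · simp
  have e2 := Ex_cs h0.le h1.le g (fun x => g x ^ 2 * G x)
  have e3 := Ex_cs h0.le h1.le (fun x => g x ^ 2) (fun x => G x ^ 2)
  have e4 : ∀ x, (g x ^ 2) ^ 2 = g x ^ 2 := fun x => by
    rw [show (g x ^ 2) ^ 2 = g x ^ 3 * g x by ring, hg, sq]
  simp only [mul_pow, e4, ← pow_mul (G _)] at e2 e3
  have e5 : Ex p (fun x => G x ^ (2 * 2)) ≤ (∑ S, b S ^ 2) ^ 2 := by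
    simpa using hyper h0.le h1.le univ b
  have e6 : (∑ S, b S ^ 2) * sg p ^ d ≤ ∑ S with S.card ≤ d, W p g S := by
    rw [sum_mul, sum_filter]
    refine sum_le_sum fun S _ => ?_
    simp only [b, W]
    split_ifs with h
    · rw [div_pow, div_mul_eq_mul_div, div_le_div_iff₀ (by positivity) (by positivity), mul_assoc,
        sq (sg p ^ _)]
      refine mul_le_mul_of_nonneg_left (mul_le_mul_of_nonneg_right ?_ (by positivity)) (sq_nonneg _)
      exact pow_le_pow_of_le_one hs.le (by linarith [sg_le p]) h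
    · simp
  rw [← e1] at e2
  have hB : 0 ≤ ∑ S, b S ^ 2 := sum_nonneg fun _ _ => sq_nonneg _
  have hJ : 0 ≤ Ex p (fun x => g x ^ 2 * G x ^ 2) := Ex_nonneg h0.le h1.le fun x => by positivity
  generalize ∑ S with S.card ≤ d, W p g S = Λ at *
  generalize Ex p (fun x => g x ^ 2) = I at *
  generalize Ex p (fun x => g x ^ 2 * G x ^ 2) = J at *
  generalize ∑ S, b S ^ 2 = B at *
  have ht : 0 < sg p ^ d := by positivity
  generalize sg p ^ d = t at *
  have f1 : (Λ ^ 2) ^ 2 ≤ (I * J) ^ 2 := by gcongr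
  have f2 : J ^ 2 ≤ I * B ^ 2 := e3.trans (by gcongr)
  have f3 : (B * t) ^ 2 ≤ Λ ^ 2 := by gcongr
  rcases hΛ0.eq_or_lt with rfl | hΛ
  · simp; positivity
  refine le_of_mul_le_mul_right ?_ (pow_pos hΛ 2)
  calc Λ ^ 2 * t ^ 2 * Λ ^ 2 = (Λ ^ 2) ^ 2 * t ^ 2 := by ring
    _ ≤ (I * J) ^ 2 * t ^ 2 := by gcongr
    _ = I ^ 2 * J ^ 2 * t ^ 2 := by ring
    _ ≤ I ^ 2 * (I * B ^ 2) * t ^ 2 := by gcongr
    _ = I ^ 3 * (B * t) ^ 2 := by ring
    _ ≤ I ^ 3 * Λ ^ 2 := by gcongr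

end Vale.Agent.P063
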