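import Mathlib

/-! Hypergraph properties and their threshold width. -/

namespace Vale.Agent.P063

/-- the `r`-element subsets of the vertex set `Fin n` -/
abbrev Edge (n r : ℕ) : Type := {e : Finset (Fin n) // e.card = r}

variable {n r : ℕ}

/-- the image of an edge under a permutation of the vertices -/
def act (π : Equiv.Perm (Fin n)) (e : Edge n r) : Edge n r :=
  ⟨e.1.map π.toEmbedding, (Finset.card_map _).trans e.2⟩

/-- invariance under all permutations of the vertices -/
def Invariant (P : Set (Edge n r → Bool)) : Prop :=
  ∀ (π : Equiv.Perm (Fin n)) (x : Edge n r → Bool), x ∈ P → (fun e => x (act π e)) ∈ P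

/-- adding edges preserves membership -/
def Increasing (P : Set (Edge n r → Bool)) : Prop :=
  ∀ x y : Edge n r → Bool, (∀ e, x e = true → y e = true) → x ∈ P → y ∈ P

open Classical in
/-- the probability that the random hypergraph with edge probability `p` lies in `P` -/
noncomputable def mu (p : ℝ) (P : Set (Edge n r → Bool)) : ℝ :=
  ∑ x : Edge n r → Bool, if x ∈ P then ∏ e, (if x e = true then p else 1 - p) else 0

/-- the first `p` at which the probability reaches `a` -/
noncomputable def pa (P : Set (Edge n r → Bool)) (a : ℝ) : ℝ :=
  sInf {p : ℝ | 0 ≤ p ∧ p ≤ 1 ∧ a ≤ mu p P}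

/-- the threshold width -/
noncomputable def width (ε : ℝ) (P : Set (Edge n r → Bool)) : ℝ := pa P (1 - ε) - pa P ε

end Vale.Agent.P063
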