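import Vale.Agent.P063.Graph

/-! Choice of the parameters and the passage to the threshold width. -/

namespace Vale.Agent.P063

open Finset Function

variable {n r : ℕ} {p : ℝ}

lemma exists_t {s L : ℝ} (hr : 2 ≤ r) (hs0 : 0 < s) (hs1 : s ≤ 1 / 4) (hL : 0 < L)
    (hs : Real.exp (-(L / 16)) ≤ s) : ∃ t : ℕ, 1 ≤ t ∧ (t : ℝ) ^ r ≤ L ^ 2 ∧
      Real.exp (-(L / 16)) ≤ s ^ t ^ (r - 1) ∧
      s / t ^ r ≤ 1024 * 2 ^ r * L ^ (-((r : ℝ) / (r - 1))) := by
  have hr' : (2 : ℝ) ≤ r := by exact_mod_cast hr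
  have hρ : (r : ℝ) / (r - 1) ≤ 2 := by rw [div_le_iff₀ (by linarith)]; linarith
  obtain ⟨l, hl⟩ : ∃ l, l = -Real.log s := ⟨_, rfl⟩
  have hsl : s = Real.exp (-l) := by rw [hl, neg_neg, Real.exp_log hs0]
  have hl1 : 1 ≤ l := by
    by_contra hc
    have h2 : Real.exp (-1) ≤ Real.exp (-l) := Real.exp_le_exp.mpr (by linarith)
    have := Real.exp_neg_one_gt_d9
    linarith
  have hl2 : l ≤ L / 16 := by rw [hsl, Real.exp_le_exp] at hs; linarith
  have hl3 : s * l ^ 2 ≤ 4 := by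
    have h2 := Real.add_one_le_exp (l / 2)
    have h3 : Real.exp (-l) * Real.exp (l / 2) ^ 2 = 1 := by
      rw [← Real.exp_nat_mul, ← Real.exp_add]; norm_num; ring
    have h4 : (l / 2) ^ 2 ≤ Real.exp (l / 2) ^ 2 := by gcongr; linarith
    rw [← hsl] at h3
    nlinarith [mul_le_mul_of_nonneg_left h4 hs0.le]
  obtain ⟨a, ha⟩ : ∃ a, a = L / (16 * l) := ⟨_, rfl⟩
  have ha1 : 1 ≤ a := by rw [ha, le_div_iff₀ (by positivity)]; linarith
  have haL : a ≤ L := by rw [ha, div_le_iff₀ (by positivity)]; nlinarith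
  obtain ⟨b, hb'⟩ : ∃ b, b = a ^ (1 / (r - 1 : ℝ)) := ⟨_, rfl⟩
  have hb1 : 1 ≤ b := hb' ▸ Real.one_le_rpow ha1 (div_nonneg zero_le_one (by linarith))
  have hb2 : b ^ (r - 1) = a := by
    rw [hb', ← Real.rpow_natCast, ← Real.rpow_mul (by linarith), Nat.cast_sub (by omega),
      Nat.cast_one, one_div_mul_cancel (by linarith), Real.rpow_one]
  have hb3 : b ^ r = a ^ ((r : ℝ) / (r - 1)) := by
    rw [hb', ← Real.rpow_natCast, ← Real.rpow_mul (by linarith)]
    congr 1; ring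
  have ht1 : 1 ≤ ⌊b⌋₊ := Nat.le_floor (by simpa using hb1)
  have ht2 : (⌊b⌋₊ : ℝ) ≤ b := Nat.floor_le (by linarith)
  have ht3 : b ≤ 2 * ⌊b⌋₊ := by
    have := Nat.lt_floor_add_one b
    have : (1 : ℝ) ≤ ⌊b⌋₊ := by exact_mod_cast ht1
    linarith
  refine ⟨_, ht1, ?_⟩
  generalize ⌊b⌋₊ = t at ht1 ht2 ht3
  have ht0 : (0 : ℝ) < t := by exact_mod_cast ht1
  refine ⟨?_, ?_, ?_⟩
  · calc (t : ℝ) ^ r ≤ b ^ r := by gcongr
      _ ≤ a ^ (2 : ℝ) := hb3 ▸ Real.rpow_le_rpow_of_exponent_le ha1 hρ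
      _ ≤ L ^ 2 := by rw [Real.rpow_two]; gcongr
  · rw [hsl, ← Real.exp_nat_mul, Real.exp_le_exp]
    have h2 : (t : ℝ) ^ (r - 1) ≤ L / (16 * l) := by rw [← ha, ← hb2]; gcongr
    rw [le_div_iff₀ (by positivity)] at h2
    push_cast
    linarith
  · have h2 : a ^ ((r : ℝ) / (r - 1)) ≤ 2 ^ r * t ^ r := by rw [← hb3, ← mul_pow]; gcongr
    have h3 : (16 * l) ^ ((r : ℝ) / (r - 1)) ≤ (16 * l) ^ 2 := by
      rw [← Real.rpow_two]; exact Real.rpow_le_rpow_of_exponent_le (by linarith) hρ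
    rw [ha, Real.div_rpow (by linarith) (by linarith), div_le_iff₀ (by positivity)] at h2
    rw [Real.rpow_neg (by linarith), ← div_eq_mul_inv, div_le_div_iff₀ (by positivity)
      (Real.rpow_pos_of_pos (by linarith) _)]
    calc _ ≤ s * (2 ^ r * t ^ r * (16 * l) ^ 2) := by
          gcongr; exact h2.trans (by gcongr)
      _ = 256 * (s * l ^ 2) * 2 ^ r * t ^ r := by ring
      _ ≤ 256 * 4 * 2 ^ r * t ^ r := by gcongr
      _ = _ := by ring

lemma var_final (h0 : 0 < p) (h1 : p < 1) (hr : 2 ≤ r) {f : (Edge n r → Bool) → ℝ} (hb : B01 f)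
    (hf : ∀ π x, f (x ∘ act π) = f x) {L : ℝ} (hn : Real.exp L = n) (hL : r ≤ L)
    (hE : 2 * L ^ 2 ≤ Real.exp (L / 16)) (hs : Real.exp (-(L / 16)) ≤ sg p) :
    Ex p f * (1 - Ex p f) ≤ (4 * r + 1024 * r * 2 ^ r) * L ^ (-((r : ℝ) / (r - 1))) * TI p f := by
  have hr' : (2 : ℝ) ≤ r := by exact_mod_cast hr
  have hs0 := sg_pos h0 h1
  have hL0 : 0 < L := by linarith
  have hρ : (r : ℝ) / (r - 1) ≤ 2 := by rw [div_le_iff₀ (by linarith)]; linarith
  obtain ⟨t, ht1, ht2, ht3, k3⟩ := exists_t hr hs0 (sg_le p) hL0 hs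
  rw [Real.exp_neg, ← one_div] at ht3
  obtain ⟨E, hE'⟩ : ∃ E, E = Real.exp (L / 16) := ⟨_, rfl⟩
  have hn' : (n : ℝ) = E ^ 16 := by rw [hE', ← Real.exp_nat_mul, ← hn]; congr 1; push_cast; ring
  rw [← hE'] at hE ht3
  clear hE' hn hs
  have hL2 : 2 * L ≤ L ^ 2 := by nlinarith
  have hE8 : 8 ≤ E := by linarith
  have hη : 1 / E ≤ L ^ (-((r : ℝ) / (r - 1))) := by
    refine le_trans ?_ (Real.rpow_le_rpow_of_exponent_le (by linarith) (neg_le_neg hρ))
    rw [Real.rpow_neg (by linarith), Real.rpow_two, ← one_div]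
    exact one_div_le_one_div_of_le (by positivity) (by linarith)
  generalize L ^ (-((r : ℝ) / (r - 1))) = η at *
  have hc1 : E ^ 8 ≤ ⌈E ^ 8⌉₊ := Nat.le_ceil _
  have hc2 : (⌈E ^ 8⌉₊ : ℝ) < E ^ 8 + 1 := Nat.ceil_lt_add_one (by positivity)
  have hE1 : E ≤ E ^ 8 := le_self_pow₀ (by linarith) (by norm_num)
  have hc3 : 0 < ⌈E ^ 8⌉₊ := Nat.ceil_pos.mpr (by positivity)
  generalize ⌈E ^ 8⌉₊ = c at hc1 hc2 hc3
  have hmn : 2 * t ^ r * (r + c) ≤ n := by
    have : (2 : ℝ) * t ^ r * (r + c) ≤ n := calc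
      (2 : ℝ) * t ^ r * (r + c) ≤ 2 * (E / 2) * (2 * E ^ 8) := by gcongr <;> linarith
      _ = 2 * E ^ 9 := by ring
      _ ≤ E ^ 7 * E ^ 9 := by
        gcongr; exact le_trans (by linarith) (le_self_pow₀ (by linarith) (by norm_num))
      _ = n := by rw [hn']; ring
    exact_mod_cast this
  refine (var_bound h0 h1 hr hb hf ht1 (m := r + c) (by omega) hmn (τ := 1 / E ^ 2)
    (by positivity)).trans (mul_le_mul_of_nonneg_right ?_ (TI_nonneg h0 h1 f))
  have k1 : 1 / E ^ 2 / sg p ^ t ^ (r - 1) ≤ 1 / E :=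
    calc 1 / E ^ 2 / sg p ^ t ^ (r - 1) ≤ 1 / E ^ 2 / (1 / E) := by gcongr
      _ = _ := by field_simp
  have k2 : 1 / ((1 / E ^ 2) ^ 2 * (((r + c : ℕ) : ℝ) - r)) ≤ 1 / E := by
    refine one_div_le_one_div_of_le (by positivity) ?_
    push_cast
    calc E ≤ E ^ 4 := le_self_pow₀ (by linarith) (by norm_num)
      _ = (1 / E ^ 2) ^ 2 * E ^ 8 := by field_simp
      _ ≤ _ := by gcongr; linarith
  rw [mul_div_assoc]
  calc _ ≤ 2 * r * (η + η) + r * (1024 * 2 ^ r * η) := by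
        gcongr
        · exact k1.trans hη
        · exact k2.trans hη
    _ = _ := by ring

open Classical in
noncomputable def ind (P : Set (Edge n r → Bool)) (x : Edge n r → Bool) : ℝ := if x ∈ P then 1 else 0

lemma mu_eq (P : Set (Edge n r → Bool)) (p : ℝ) : mu p P = Ex p (ind P) := by
  unfold mu Ex ind wt w1
  refine sum_congr rfl fun x _ => ?_
  split_ifs <;> simp

lemma ind_b01 (P : Set (Edge n r → Bool)) : B01 (ind P) := fun x => by
  unfold ind; split_ifs <;> simp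

lemma ind_inv {P : Set (Edge n r → Bool)} (h : Invariant P) (π : Equiv.Perm (Fin n))
    (x : Edge n r → Bool) : ind P (x ∘ act π) = ind P x := by
  have : x ∘ act π ∈ P ↔ x ∈ P := ⟨fun a => by
    have h2 := h π.symm _ a
    have h3 : ∀ e : Edge n r, act π (act π.symm e) = e := (actE π).right_inv
    simpa [h3] using h2, h π x⟩
  unfold ind
  rw [this]

lemma hasDerivAt_mu (h0 : 0 < p) (h1 : p < 1) {P : Set (Edge n r → Bool)} (h : Increasing P) :
    HasDerivAt (fun q => mu q P) (TI p (ind P)) p := by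
  simp only [mu_eq]
  refine (hasDerivAt_Ex h0 h1 _).congr_deriv (sum_congr rfl fun e _ => ?_)
  unfold Inf
  congr 1
  ext x
  have := h (update x e false) (update x e true) fun i => by
    by_cases a : i = e <;> simp [a]
  unfold D ind
  split_ifs with a b b
  · simp
  · simp
  · exact absurd (this b) a
  · simp

lemma continuous_mu (P : Set (Edge n r → Bool)) : Continuous fun q => mu q P := by
  unfold mu
  refine continuous_finsetSum _ fun x _ => ?_
  split_ifs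
  · refine continuous_finsetProd _ fun e _ => ?_
    split_ifs <;> fun_prop
  · fun_prop

lemma mu_slope {P : Set (Edge n r → Bool)} (h : Increasing P) {u v : ℝ} (hu : 0 ≤ u) (huv : u < v)
    (hv : v ≤ 1) : ∃ q ∈ Set.Ioo u v, mu v P - mu u P = TI q (ind P) * (v - u) := by
  obtain ⟨q, hq, h2⟩ := exists_hasDerivAt_eq_slope (fun q => mu q P) (fun q => TI q (ind P)) huv
    (continuous_mu P).continuousOn fun q hq => hasDerivAt_mu (hu.trans_lt hq.1) (hq.2.trans_le hv) h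
  exact ⟨q, hq, by rw [h2, div_mul_cancel₀ _ (sub_pos.mpr huv).ne']⟩

lemma mu_mono {P : Set (Edge n r → Bool)} (h : Increasing P) {u v : ℝ} (hu : 0 ≤ u) (huv : u < v)
    (hv : v ≤ 1) : mu u P ≤ mu v P := by
  obtain ⟨q, hq, h2⟩ := mu_slope h hu huv hv
  have := mul_nonneg (TI_nonneg (hu.trans_lt hq.1) (hq.2.trans_le hv) (ind P)) (sub_pos.mpr huv).le
  linarith

lemma mu_one {P : Set (Edge n r → Bool)} (h : Increasing P) (hP : P.Nonempty) : mu 1 P = 1 := by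
  obtain ⟨x, hx⟩ := hP
  unfold mu
  rw [sum_eq_single fun _ => true]
  · simp [h x _ (fun _ _ => rfl) hx]
  · intro y _ hy
    obtain ⟨e, he⟩ := Function.ne_iff.mp hy
    split_ifs
    · exact prod_eq_zero (mem_univ e) (by simp [he])
    · rfl
  · simp

lemma width_le {P : Set (Edge n r → Bool)} (h : Increasing P) (hP : P.Nonempty) {ε η K : ℝ}
    (h0 : 0 < ε) (h1 : ε < 1 / 2) (hη : 0 < η) (hK : 0 < K)
    (hv : ∀ q, η ≤ q → q ≤ 1 - η → mu q P * (1 - mu q P) ≤ K * η * TI q (ind P)) :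
    width ε P ≤ (2 + K / ε ^ 2) * η := by
  have hb : ∀ a, BddBelow {p : ℝ | 0 ≤ p ∧ p ≤ 1 ∧ a ≤ mu p P} := fun a => ⟨0, fun _ h => h.1⟩
  have h2 : pa P (1 - ε) ≤ 1 := csInf_le (hb _) ⟨zero_le_one, le_rfl, by rw [mu_one h hP]; linarith⟩
  have h3 : ∀ q, 0 ≤ q → q < pa P (1 - ε) → mu q P < 1 - ε := fun q a b => by
    by_contra c
    exact absurd (csInf_le (hb _) ⟨a, by linarith, not_lt.mp c⟩) (not_le.mpr b)
  rw [width, sub_le_comm]
  refine le_csInf ⟨1, zero_le_one, le_rfl, by rw [mu_one h hP]; linarith⟩ fun u ⟨u0, _, u2⟩ => ?_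
  by_contra hc
  have hd : 0 < K / ε ^ 2 * η := by positivity
  have hc' : u + η + K / ε ^ 2 * η + η < pa P (1 - ε) := by linarith
  obtain ⟨q, ⟨q1, q2⟩, h4⟩ := mu_slope h (u := u + η) (v := u + η + K / ε ^ 2 * η) (by linarith)
    (by linarith) (by linarith)
  have h5 := hv q (by linarith) (by linarith)
  have h6 := h3 q (by linarith) (by linarith)
  have h7 := mu_mono h u0 (v := q) (by linarith) (by linarith)
  have h8 := h3 (u + η + K / ε ^ 2 * η) (by linarith) (by linarith)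
  have h9 := mu_mono h u0 (v := u + η) (by linarith) (by linarith)
  have k1 : ε ^ 2 ≤ K * η * TI q (ind P) := by nlinarith
  have k2 : 1 ≤ TI q (ind P) * (u + η + K / ε ^ 2 * η - (u + η)) := by
    rw [add_sub_cancel_left, div_mul_eq_mul_div, ← mul_div_assoc, le_div_iff₀ (by positivity)]
    linarith
  linarith

lemma width_le_one {P : Set (Edge n r → Bool)} (h : Increasing P) (hP : P.Nonempty) {ε : ℝ}
    (h0 : 0 < ε) : width ε P ≤ 1 := by
  have h2 : pa P (1 - ε) ≤ 1 := csInf_le ⟨0, fun _ h => h.1⟩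
    ⟨zero_le_one, le_rfl, by rw [mu_one h hP]; linarith⟩
  have h3 : 0 ≤ pa P ε := Real.sInf_nonneg fun _ h => h.1
  unfold width
  linarith

end Vale.Agent.P063
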