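import Vale.Agent.P063.Low
import Vale.Agent.P063.Defs

/-! The variance of a symmetric function against its total influence. -/

namespace Vale.Agent.P063

open Finset Function

variable {n r : ℕ} {p : ℝ}

lemma mem_act (π : Equiv.Perm (Fin n)) (e : Edge n r) (v : Fin n) :
    v ∈ (act π e).1 ↔ π.symm v ∈ e.1 := by
  simp [act, mem_map_equiv]

def actE (π : Equiv.Perm (Fin n)) : Equiv.Perm (Edge n r) where
  toFun := act π
  invFun := act π.symm
  left_inv e := by ext v; simp [mem_act]
  right_inv e := by ext v; simp [mem_act]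

def star (r : ℕ) (U : Finset (Fin n)) : Finset (Edge n r) := univ.filter fun e => ∃ u ∈ U, u ∈ e.1

lemma mem_star {U : Finset (Fin n)} {e : Edge n r} : e ∈ star r U ↔ ∃ u ∈ U, u ∈ e.1 := by
  simp [star]

lemma sym_bound (h0 : 0 < p) (h1 : p < 1) {f : (Edge n r → Bool) → ℝ}
    (hf : ∀ π x, f (x ∘ act π) = f x) (U : Finset (Fin n)) (y : Edge n r → Bool) (e : Edge n r) :
    ((U.card : ℝ) - r) * Inf p e (fun z => f ((star r U).piecewise z y)) ≤
      TI p fun z => f ((star r U).piecewise z y) := by
  by_cases he : e ∈ star r U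
  · obtain ⟨u, hu, hue⟩ := mem_star.mp he
    have h2 : ∀ v ∈ U \ e.1, Inf p (act (Equiv.swap u v) e) (fun z => f ((star r U).piecewise z y)) =
        Inf p e (fun z => f ((star r U).piecewise z y)) := by
      intro v hv
      have hvU := (mem_sdiff.mp hv).1
      refine Inf_perm (actE (Equiv.swap u v)) (fun z => ?_) e
      rw [← hf (Equiv.swap u v) ((star r U).piecewise z y)]
      congr 1
      ext e'
      by_cases h : e' ∈ star r U
      · have h' : act (Equiv.swap u v) e' ∈ star r U := by
          obtain ⟨w, hw, hwe⟩ := mem_star.mp h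
          refine mem_star.mpr ⟨Equiv.swap u v w, ?_, by simpa [mem_act] using hwe⟩
          rw [Equiv.swap_apply_def]; split_ifs <;> assumption
        simp [h, h', actE]
      · have h' : act (Equiv.swap u v) e' = e' := by
          ext w
          have a1 : u ∉ e'.1 := fun a => h (mem_star.mpr ⟨u, hu, a⟩)
          have a2 : v ∉ e'.1 := fun a => h (mem_star.mpr ⟨v, hvU, a⟩)
          rw [mem_act, Equiv.symm_swap, Equiv.swap_apply_def]
          split_ifs with b1 b2
          · simp [b1, a1, a2]
          · simp [b2, a1, a2]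
          · rfl
        simp [h, h']
    calc _ ≤ ∑ v ∈ U \ e.1, Inf p e (fun z => f ((star r U).piecewise z y)) := by
          rw [sum_const, nsmul_eq_mul]
          refine mul_le_mul_of_nonneg_right ?_ (Inf_nonneg h0 h1 _ _)
          have := le_card_sdiff e.1 U
          rw [e.2] at this
          have h3 : U.card ≤ (U \ e.1).card + r := by omega
          have h4 := (Nat.cast_le (α := ℝ)).mpr h3
          push_cast at h4
          linarith
      _ ≤ _ := by
          refine sum_le_sum_of_injOn (fun v => act (Equiv.swap u v) e) (fun v hv v' hv' h => ?_)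
            (subset_univ _) (fun v hv => (h2 v hv).ge) fun a _ _ => Inf_nonneg h0 h1 _ _
          have a1 : v ∈ (act (Equiv.swap u v) e).1 := by simp [mem_act, hue]
          have a2 := (mem_sdiff.mp hv).2
          have a3 := (mem_sdiff.mp hv').2
          simp only at h
          rw [h, mem_act, Equiv.symm_swap, Equiv.swap_apply_def] at a1
          split_ifs at a1 with b1 b2
          · exact absurd a1 a3
          · exact b2
          · exact absurd a1 a2
  · have : ∀ z : Edge n r → Bool, ∀ b,
        (star r U).piecewise (update z e b) y = (star r U).piecewise z y := by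
      intro z b
      ext i
      by_cases h : i ∈ star r U
      · simp [h, update_of_ne (ne_of_mem_of_not_mem h he)]
      · simp [h]
    simp only [Inf, D, this, sub_self, ne_eq, OfNat.ofNat_ne_zero, not_false_eq_true, zero_pow,
      Ex_const, mul_zero]
    exact TI_nonneg h0 h1 _

lemma card_one (m : ℕ) (hm : 1 ≤ m) (v : Fin n) :
    ((powersetCard m (univ : Finset (Fin n))).filter (v ∈ ·)).card = (n - 1).choose (m - 1) := by
  simpa using card_filter_powersetCard_subset {v} univ m (subset_univ _) (by simpa using hm)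

lemma card_two (m : ℕ) (hm : 2 ≤ m) {v w : Fin n} (h : v ≠ w) :
    ((powersetCard m (univ : Finset (Fin n))).filter fun U => v ∈ U ∧ w ∈ U).card =
      (n - 2).choose (m - 2) := by
  simpa [card_pair h, insert_subset_iff] using
    card_filter_powersetCard_subset {v, w} univ m (subset_univ _) (by simpa [card_pair h] using hm)

lemma min_deg (hr : 2 ≤ r) {t : ℕ} {S : Finset (Edge n r)} (hS : S.Nonempty)
    (h : r * S.card < t ^ r) : ∃ v, 1 ≤ (S.filter (v ∈ ·.1)).card ∧
      (S.filter (v ∈ ·.1)).card ≤ t ^ (r - 1) := by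
  by_contra hc
  push Not at hc
  let V := S.biUnion fun e => e.1
  have h1 : ∀ v ∈ V, t ^ (r - 1) < (S.filter (v ∈ ·.1)).card := fun v hv => hc v <| by
    obtain ⟨e, he, hv⟩ := mem_biUnion.mp hv
    exact card_pos.mpr ⟨e, mem_filter.mpr ⟨he, hv⟩⟩
  have h2 : ∑ v ∈ V, (S.filter (v ∈ ·.1)).card = r * S.card := by
    simp only [card_filter]
    rw [sum_comm, mul_comm, ← smul_eq_mul, ← sum_const]
    refine sum_congr rfl fun e he => ?_
    rw [← card_filter, filter_mem_eq_inter, inter_eq_right.mpr (subset_biUnion_of_mem _ he), e.2]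
  obtain ⟨e, he⟩ := hS
  obtain ⟨v, hv⟩ : e.1.Nonempty := card_pos.mp (by rw [e.2]; omega)
  have hvV : v ∈ V := mem_biUnion.mpr ⟨e, he, hv⟩
  have h3 : (S.filter (v ∈ ·.1)).card ≤ V.card ^ (r - 1) := by
    have := card_filter_powersetCard_subset {v} V r (by simpa using hvV) (by simp; omega)
    simp only [card_singleton] at this
    refine le_trans ?_ ((Nat.choose_le_pow _ _).trans (Nat.pow_le_pow_left (Nat.sub_le _ 1) _))
    rw [← this]
    refine card_le_card_of_injOn (fun e => e.1) (fun e he => ?_) Subtype.val_injective.injOn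
    have he := mem_filter.mp he
    simp only [coe_filter, mem_powersetCard, singleton_subset_iff, Set.mem_ofPred_eq]
    exact ⟨⟨subset_biUnion_of_mem _ he.1, e.2⟩, he.2⟩
  have h4 : t < V.card := lt_of_pow_lt_pow_left₀ _ (Nat.zero_le _) ((h1 v hvV).trans_le h3)
  have h5 := card_nsmul_le_sum V _ (t ^ (r - 1)) fun v hv => (h1 v hv).le
  rw [h2, smul_eq_mul] at h5
  have h6 : t ^ r = t * t ^ (r - 1) := by rw [← pow_succ']; congr 1; omega
  have := Nat.mul_le_mul_right (t ^ (r - 1)) h4.le
  omega

lemma good_count (hr : 2 ≤ r) {t m : ℕ} (hm : 2 ≤ m) (hn : 2 * t ^ r * m ≤ n)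
    {S : Finset (Edge n r)} (hS : S.Nonempty) (h : r * S.card < t ^ r) :
    (n - 1).choose (m - 1) ≤ 2 * ((powersetCard m (univ : Finset (Fin n))).filter fun U =>
      1 ≤ (S ∩ star r U).card ∧ (S ∩ star r U).card ≤ t ^ (r - 1)).card := by
  obtain ⟨v, hv⟩ := min_deg hr hS h
  let V := S.biUnion fun e => e.1
  have hV : V.card ≤ r * S.card := by
    rw [mul_comm]; exact card_biUnion_le_card_mul _ _ _ fun e _ => e.2.le
  have h1 : (powersetCard m (univ : Finset (Fin n))).filter (v ∈ ·) ⊆
      ((powersetCard m (univ : Finset (Fin n))).filter fun U =>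
        1 ≤ (S ∩ star r U).card ∧ (S ∩ star r U).card ≤ t ^ (r - 1)) ∪
      (V.erase v).biUnion fun w => (powersetCard m univ).filter fun U => v ∈ U ∧ w ∈ U := by
    intro U hU
    obtain ⟨hU, hvU⟩ := mem_filter.mp hU
    by_cases hw : ∃ w ∈ V.erase v, w ∈ U
    · obtain ⟨w, hw, hwU⟩ := hw
      exact mem_union_right _ (mem_biUnion.mpr ⟨w, hw, mem_filter.mpr ⟨hU, hvU, hwU⟩⟩)
    · refine mem_union_left _ (mem_filter.mpr ⟨hU, ?_⟩)
      have : S ∩ star r U = S.filter (v ∈ ·.1) := by
        ext e
        simp only [mem_inter, mem_star, mem_filter, and_congr_right_iff]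
        refine fun he => ⟨fun ⟨u, hu, hue⟩ => ?_, fun a => ⟨v, hvU, a⟩⟩
        by_contra a
        exact hw ⟨u, mem_erase.mpr ⟨fun b => a (b ▸ hue), mem_biUnion.mpr ⟨e, he, hue⟩⟩, hu⟩
      rwa [this]
  have h2 := (card_le_card h1).trans (card_union_le _ _)
  have h3 := card_biUnion_le_card_mul (V.erase v)
    (fun w => (powersetCard m (univ : Finset (Fin n))).filter fun U => v ∈ U ∧ w ∈ U)
    ((n - 2).choose (m - 2)) fun w hw => (card_two m hm (mem_erase.mp hw).1.symm).le
  rw [card_one m (by omega)] at h2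
  have h4 : (V.erase v).card ≤ t ^ r := card_erase_le.trans (by omega)
  have h5 : 1 ≤ t ^ r := by omega
  obtain ⟨m, rfl⟩ : ∃ k, m = k + 2 := ⟨m - 2, by omega⟩
  obtain ⟨k, hk⟩ : ∃ k, n = k + 2 := ⟨n - 2, by have : 2 ≤ n := (by nlinarith); omega⟩
  have h6 := Nat.add_one_mul_choose_eq k m
  rw [show n - 2 = k by omega, show m + 2 - 2 = m by omega] at h3
  rw [show n - 1 = k + 1 by omega, show m + 2 - 1 = m + 1 by omega] at h2 ⊢
  have h7 : 2 * (t ^ r * k.choose m) ≤ (k + 1).choose (m + 1) := by
    refine Nat.le_of_mul_le_mul_left ?_ (Nat.succ_pos k)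
    calc (k + 1) * (2 * (t ^ r * k.choose m)) = 2 * t ^ r * ((k + 1) * k.choose m) := by ring
      _ = 2 * t ^ r * (m + 1) * (k + 1).choose (m + 1) := by rw [h6]; ring
      _ ≤ _ := Nat.mul_le_mul_right _ (by nlinarith)
  have h8 := Nat.mul_le_mul_right (k.choose m) h4
  omega

lemma var_bound (h0 : 0 < p) (h1 : p < 1) (hr : 2 ≤ r) {f : (Edge n r → Bool) → ℝ} (hb : B01 f)
    (hf : ∀ π x, f (x ∘ act π) = f x) {t m : ℕ} (ht : 1 ≤ t) (hm : r < m) (hn : 2 * t ^ r * m ≤ n)
    {τ : ℝ} (hτ : 0 < τ) : Ex p f * (1 - Ex p f) ≤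
      (2 * r * (τ / sg p ^ t ^ (r - 1) + 1 / (τ ^ 2 * (m - r))) + r * sg p / t ^ r) * TI p f := by
  have hs := sg_pos h0 h1
  have hT := TI_nonneg h0 h1 f
  have hk : (0 : ℝ) < m - r := sub_pos.mpr (by exact_mod_cast hm)
  have ht' : (0 : ℝ) < t ^ r := by positivity
  rw [var_eq h0 h1 hb, ← sum_filter_add_sum_filter_not _ (fun S => r * S.card < t ^ r), add_mul]
  refine add_le_add ?_ ?_
  · generalize hκ : τ / sg p ^ t ^ (r - 1) + 1 / (τ ^ 2 * (m - r)) = κ
    have hκ0 : 0 ≤ κ := by rw [← hκ]; positivity
    have hN : (0 : ℝ) < (n - 1).choose (m - 1) := by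
      have : 1 ≤ t ^ r := Nat.one_le_pow _ _ ht
      have : m ≤ n := by nlinarith
      exact_mod_cast Nat.choose_pos (by omega)
    refine le_of_mul_le_mul_left ?_ hN
    calc _ ≤ 2 * ∑ S, ∑ U ∈ powersetCard m (univ : Finset (Fin n)),
          if 1 ≤ (S ∩ star r U).card ∧ (S ∩ star r U).card ≤ t ^ (r - 1) then W p f S else 0 := by
          rw [mul_sum, mul_sum]
          refine le_trans (sum_le_sum fun S hS => ?_) (sum_le_sum_of_subset_of_nonneg
            (subset_univ _) fun S _ _ => mul_nonneg zero_le_two (sum_nonneg fun U _ => ?_))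
          · simp only [mem_filter, mem_univ, true_and] at hS
            rw [← sum_filter, sum_const, nsmul_eq_mul, ← mul_assoc]
            refine mul_le_mul_of_nonneg_right ?_ (W_nonneg h0 h1 _ _)
            exact_mod_cast good_count hr (by omega) hn (nonempty_iff_ne_empty.mpr hS.1) hS.2
          · split_ifs
            · exact W_nonneg h0 h1 _ _
            · exact le_rfl
      _ ≤ 2 * ∑ U ∈ powersetCard m (univ : Finset (Fin n)), κ * ∑ e ∈ star r U, Inf p e f := by
          rw [sum_comm]
          refine mul_le_mul_of_nonneg_left (sum_le_sum fun U hU => ?_) zero_le_two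
          rw [← sum_filter, ← hκ]
          refine star_bound h0 h1 hb hk hτ _ (fun y e => ?_) _
          rw [← (mem_powersetCard.mp hU).2]
          exact sym_bound h0 h1 hf U y e
      _ ≤ 2 * (κ * ∑ e, r * (n - 1).choose (m - 1) * Inf p e f) := by
          rw [← mul_sum]
          gcongr
          simp only [star, sum_filter]
          rw [sum_comm]
          refine sum_le_sum fun e _ => ?_
          rw [← sum_filter, sum_const, nsmul_eq_mul]
          refine mul_le_mul_of_nonneg_right ?_ (Inf_nonneg h0 h1 _ _)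
          have := card_biUnion_le_card_mul e.1
            (fun w => (powersetCard m (univ : Finset (Fin n))).filter (w ∈ ·))
            ((n - 1).choose (m - 1)) fun w _ => (card_one m (by omega) w).le
          rw [e.2] at this
          refine mod_cast le_trans (card_le_card fun U hU => ?_) this
          obtain ⟨hU, u, hu, hue⟩ := mem_filter.mp hU
          exact mem_biUnion.mpr ⟨u, hue, mem_filter.mpr ⟨hU, hu⟩⟩
      _ = _ := by rw [← mul_sum, TI]; ring
  · calc _ ≤ ∑ S, r / t ^ r * (S.card * W p f S) := by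
          refine le_trans (sum_le_sum fun S hS => ?_) (sum_le_sum_of_subset_of_nonneg
            (subset_univ _) fun S _ _ => ?_)
          · rw [← mul_assoc]
            refine le_mul_of_one_le_left (W_nonneg h0 h1 _ _) ?_
            rw [div_mul_eq_mul_div, le_div_iff₀ ht', one_mul]
            exact_mod_cast not_lt.mp (mem_filter.mp hS).2
          · have := W_nonneg h0 h1 f S
            positivity
      _ ≤ _ := by
          rw [← mul_sum, mul_div_right_comm, mul_assoc]
          exact mul_le_mul_of_nonneg_left (deg_bound h0 h1 f) (by positivity)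

end Vale.Agent.P063
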