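import Vale.Agent.P063.Cube

/-! Low degree weight of Boolean functions with spread influences, and restrictions. -/

namespace Vale.Agent.P063

open Finset Function

set_option linter.unusedSectionVars false

variable {ι : Type} [Fintype ι] [DecidableEq ι] {p : ℝ}

def B01 (g : (ι → Bool) → ℝ) : Prop := ∀ x, g x = 0 ∨ g x = 1

def TI (p : ℝ) (g : (ι → Bool) → ℝ) : ℝ := ∑ e, Inf p e g

lemma Inf_nonneg (h0 : 0 < p) (h1 : p < 1) (e : ι) (g : (ι → Bool) → ℝ) : 0 ≤ Inf p e g :=
  Ex_nonneg h0.le h1.le fun _ => sq_nonneg _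

lemma TI_nonneg (h0 : 0 < p) (h1 : p < 1) (g : (ι → Bool) → ℝ) : 0 ≤ TI p g :=
  sum_nonneg fun e _ => Inf_nonneg h0 h1 e g

lemma sum_le_sum_of_injOn {α β : Type} [DecidableEq β] {s : Finset α} {t : Finset β} {f : α → ℝ}
    {g : β → ℝ} (e : α → β) (hinj : Set.InjOn e s) (him : s.image e ⊆ t)
    (h : ∀ i ∈ s, f i ≤ g (e i)) (hg : ∀ a ∈ t, a ∉ s.image e → 0 ≤ g a) :
    ∑ i ∈ s, f i ≤ ∑ a ∈ t, g a :=
  (sum_le_sum h).trans ((sum_image hinj).ge.trans (sum_le_sum_of_subset_of_nonneg him hg))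

lemma sum_W_erase (h0 : 0 < p) (h1 : p < 1) (g : (ι → Bool) → ℝ) (e : ι) {P P' : Finset (Finset ι)}
    (h : ∀ S ∈ P, e ∈ S ∧ S.erase e ∈ P') :
    ∑ S ∈ P, W p g S ≤ sg p * ∑ S ∈ P', W p (D e g) S := by
  have hs := sg_pos h0 h1
  rw [mul_sum]
  refine sum_le_sum_of_injOn (fun S => S.erase e) (fun S hS T hT hST => ?_) ?_ ?_ ?_
  · rw [← insert_erase (h S hS).1, ← insert_erase (h T hT).1]
    exact congrArg _ hST
  · exact image_subset_iff.mpr fun S hS => (h S hS).2
  · intro S hS
    conv_lhs => rw [← insert_erase (h S hS).1]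
    unfold W
    rw [co_insert (notMem_erase _ _), card_insert_of_notMem (notMem_erase _ _)]
    apply le_of_eq
    field_simp
    ring
  · intro S _ _
    exact mul_nonneg hs.le (W_nonneg h0 h1 _ _)

lemma sum_card_mul (P : Finset (Finset ι)) (F : Finset ι → ℝ) :
    ∑ S ∈ P, S.card * F S = ∑ e, ∑ S ∈ P with e ∈ S, F S := by
  simp only [sum_filter]
  rw [sum_comm]
  refine sum_congr rfl fun S _ => ?_
  simp

lemma deg_bound (h0 : 0 < p) (h1 : p < 1) (g : (ι → Bool) → ℝ) :
    ∑ S, S.card * W p g S ≤ sg p * TI p g := by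
  rw [sum_card_mul, TI, mul_sum]
  refine sum_le_sum fun e _ => ?_
  rw [Inf, ← parseval h0 h1]
  exact sum_W_erase h0 h1 g e fun S hS => ⟨(mem_filter.mp hS).2, mem_univ _⟩

lemma kkl (h0 : 0 < p) (h1 : p < 1) {g : (ι → Bool) → ℝ} (hg : B01 g) {k τ : ℝ} (hk : 0 < k)
    (hτ : 0 < τ) (hI : ∀ e, k * Inf p e g ≤ TI p g) (d : ℕ) :
    ∑ S with 1 ≤ S.card ∧ S.card ≤ d, W p g S ≤ (τ / sg p ^ d + 1 / (τ ^ 2 * k)) * TI p g := by
  have hs := sg_pos h0 h1
  have hT := TI_nonneg h0 h1 g
  rw [add_mul]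
  rcases le_total (TI p g) (τ ^ 2 * k) with h | h
  · refine le_add_of_le_of_nonneg ?_ (by positivity)
    calc ∑ S with 1 ≤ S.card ∧ S.card ≤ d, W p g S
        ≤ ∑ S with 1 ≤ S.card ∧ S.card ≤ d, S.card * W p g S :=
          sum_le_sum fun S hS => le_mul_of_one_le_left (W_nonneg h0 h1 _ _)
            (by exact_mod_cast (mem_filter.mp hS).2.1)
      _ ≤ _ := by
        rw [sum_card_mul, TI, mul_sum]
        refine sum_le_sum fun e _ => ?_
        refine (sum_W_erase h0 h1 g e (P' := filter (fun S => S.card ≤ d) univ)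
          fun S hS => ⟨(mem_filter.mp hS).2, ?_⟩).trans ?_
        · simp only [mem_filter, mem_univ, true_and] at hS ⊢
          exact (card_erase_le).trans hS.1.2
        have h2 := low_weight h0 h1 (g := D e g) (fun x => by
          unfold D
          rcases hg (update x e true) with a | a <;> rcases hg (update x e false) with b | b <;>
            rw [a, b] <;> norm_num) d
        have h3 : Inf p e g ≤ τ ^ 2 := le_of_mul_le_mul_left ((hI e).trans (by linarith)) hk
        have h4 := Inf_nonneg h0 h1 e g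
        have h5 : (∑ S with S.card ≤ d, W p (D e g) S) * sg p ^ d ≤ τ * Inf p e g := by
          refine le_of_sq_le_sq ?_ (by positivity)
          rw [mul_pow]
          refine h2.trans ?_
          change Inf p e g ^ 3 ≤ _
          nlinarith [mul_le_mul_of_nonneg_left h3 (sq_nonneg (Inf p e g))]
        have h6 : 0 ≤ ∑ S with S.card ≤ d, W p (D e g) S := sum_nonneg fun S _ => W_nonneg h0 h1 _ _
        rw [div_mul_eq_mul_div, le_div_iff₀ (by positivity)]
        refine le_trans ?_ h5
        rw [mul_assoc]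
        exact mul_le_of_le_one_left (by positivity) (by linarith [sg_le p])
  · refine le_add_of_nonneg_of_le (by positivity) ?_
    calc ∑ S with 1 ≤ S.card ∧ S.card ≤ d, W p g S ≤ ∑ S, W p g S :=
          sum_le_sum_of_subset_of_nonneg (filter_subset _ _) fun S _ _ => W_nonneg h0 h1 _ _
      _ ≤ 1 := by
        rw [parseval h0 h1, ← Ex_const (ι := ι) (p := p) 1]
        exact Ex_mono h0.le h1.le fun x => by rcases hg x with a | a <;> simp [a]
      _ ≤ _ := by
        rw [div_mul_eq_mul_div, one_mul, le_div_iff₀ (by positivity)]; linarith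

lemma restrict_W (h0 : 0 < p) (h1 : p < 1) (f : (ι → Bool) → ℝ) (A T : Finset ι) :
    ∑ S with S ∩ A = T, W p f S ≤ Ex p fun y => W p (fun z => f (A.piecewise z y)) T := by
  have hs := sg_pos h0 h1
  have e1 : (Ex p fun y => W p (fun z => f (A.piecewise z y)) T) =
      ∑ R, (sg p ^ T.card)⁻¹ * W p (fun y => co p (fun z => f (A.piecewise z y)) T) R := by
    rw [← mul_sum, parseval h0 h1, ← Ex_mul]
    simp only [W, div_eq_inv_mul]
  rw [e1]
  refine sum_le_sum_of_injOn (fun S => S \ A) (fun S hS S' hS' h => ?_) (subset_univ _) ?_ ?_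
  · simp only [coe_filter, mem_univ, true_and, Set.mem_ofPred_eq] at hS hS'
    rw [← sdiff_union_inter S A, ← sdiff_union_inter S' A, hS, hS']
    exact congrArg (· ∪ T) h
  · intro S hS
    obtain rfl : S ∩ A = T := (mem_filter.mp hS).2
    have e2 : co p (fun y => co p (fun z => f (A.piecewise z y)) (S ∩ A)) (S \ A) = co p f S := by
      unfold co
      rw [← Ex_pw A fun x => f x * psi p S x]
      congr 1
      ext y
      rw [mul_comm, ← Ex_mul]
      congr 1
      ext z
      have : psi p S (A.piecewise z y) = psi p (S ∩ A) z * psi p (S \ A) y := by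
        unfold psi
        rw [← prod_inter_mul_prod_sdiff S A]
        congr 1
        · exact prod_congr rfl fun i hi => by rw [piecewise_eq_of_mem _ _ _ (mem_inter.mp hi).2]
        · exact prod_congr rfl fun i hi => by rw [piecewise_eq_of_notMem _ _ _ (mem_sdiff.mp hi).2]
      rw [this]; ring
    unfold W
    rw [e2, ← card_inter_add_card_sdiff S A, pow_add]
    apply le_of_eq
    field_simp
  · intro S _ _
    exact mul_nonneg (by positivity) (W_nonneg h0 h1 _ _)

lemma restrict_TI (f : (ι → Bool) → ℝ) (A : Finset ι) :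
    (Ex p fun y => TI p fun z => f (A.piecewise z y)) = ∑ e ∈ A, Inf p e f := by
  unfold TI
  rw [Ex_sum, ← sum_subset (subset_univ A)]
  · refine sum_congr rfl fun e he => ?_
    unfold Inf
    rw [← Ex_pw A fun x => D e f x ^ 2]
    simp only [D, update_piecewise_of_mem _ _ _ he]
  · intro e _ he
    have : ∀ z y : ι → Bool, ∀ b, A.piecewise (update z e b) y = A.piecewise z y := by
      intro z y b
      ext i
      by_cases h : i ∈ A
      · simp [h, update_of_ne (ne_of_mem_of_not_mem h he)]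
      · simp [h]
    simp [Inf, D, this, Ex_const]

lemma star_bound (h0 : 0 < p) (h1 : p < 1) {f : (ι → Bool) → ℝ} (hf : B01 f) {k τ : ℝ}
    (hk : 0 < k) (hτ : 0 < τ) (A : Finset ι)
    (hI : ∀ y e, k * Inf p e (fun z => f (A.piecewise z y)) ≤ TI p fun z => f (A.piecewise z y))
    (d : ℕ) : ∑ S with 1 ≤ (S ∩ A).card ∧ (S ∩ A).card ≤ d, W p f S ≤
      (τ / sg p ^ d + 1 / (τ ^ 2 * k)) * ∑ e ∈ A, Inf p e f := by
  rw [← restrict_TI, ← Ex_mul]
  refine le_trans ?_ (Ex_mono h0.le h1.le fun y => kkl h0 h1 (fun _ => hf _) hk hτ (hI y) d)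
  rw [Ex_sum, ← sum_fiberwise_of_maps_to (t := filter (fun T => 1 ≤ T.card ∧ T.card ≤ d) univ)
    (g := fun S => S ∩ A) (fun S hS => by simpa using hS)]
  refine sum_le_sum fun T _ => le_trans ?_ (restrict_W h0 h1 f A T)
  exact sum_le_sum_of_subset_of_nonneg (fun S hS => by simpa using (mem_filter.mp hS).2)
    fun S _ _ => W_nonneg h0 h1 _ _

lemma Inf_perm {g : (ι → Bool) → ℝ} (σ : Equiv.Perm ι) (h : ∀ x, g (x ∘ σ) = g x) (e : ι) :
    Inf p (σ e) g = Inf p e g := by
  unfold Inf Ex
  rw [← Equiv.sum_comp (Equiv.arrowCongr σ.symm (Equiv.refl Bool))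
    fun x => wt p x * D e g x ^ 2]
  refine sum_congr rfl fun x _ => ?_
  have e1 : (Equiv.arrowCongr σ.symm (Equiv.refl Bool)) x = x ∘ σ := by ext; simp
  rw [e1]
  congr 1
  · exact (Equiv.prod_comp σ fun i => w1 p (x i)).symm
  · unfold D
    rw [← update_comp_eq_of_injective x σ.injective, ← update_comp_eq_of_injective x σ.injective,
      h, h]

lemma var_eq (h0 : 0 < p) (h1 : p < 1) {f : (ι → Bool) → ℝ} (hf : B01 f) :
    Ex p f * (1 - Ex p f) = ∑ S with S ≠ ∅, W p f S := by
  have h2 := parseval h0 h1 f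
  have h3 : (fun x => f x ^ 2) = f := by
    ext x; rcases hf x with a | a <;> simp [a]
  rw [h3, ← add_sum_erase _ _ (mem_univ ∅)] at h2
  have h4 : W p f ∅ = Ex p f ^ 2 := by simp [W, co, psi]
  rw [filter_ne' univ ∅]
  linarith

/-- Russo's formula -/
lemma hasDerivAt_Ex (h0 : 0 < p) (h1 : p < 1) (f : (ι → Bool) → ℝ) :
    HasDerivAt (fun q => Ex q f) (∑ e, Ex p (D e f)) p := by
  have hs := sg_pos h0 h1
  have h2 : ∀ b, HasDerivAt (fun q => w1 q b) (w1 p b * ps p b / sg p) p := by
    have : 1 - p ≠ 0 := by linarith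
    intro b
    cases b
    · simp only [w1, ps, sg, Bool.false_eq_true, if_false]
      exact ((hasDerivAt_id p).const_sub 1).congr_deriv (by field_simp)
    · simp only [w1, ps, sg, if_true]
      exact (hasDerivAt_id p).congr_deriv (by field_simp)
  have h3 : ∀ x : ι → Bool, HasDerivAt (fun q => wt q x * f x)
      (∑ e, (sg p)⁻¹ * (wt p x * (f x * psi p {e} x))) p := by
    intro x
    have := (HasDerivAt.fun_finsetProd (u := univ) fun i _ => h2 (x i)).mul_const (f x)
    refine this.congr_deriv ?_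
    rw [sum_mul]
    refine sum_congr rfl fun e _ => ?_
    rw [wt, ← prod_erase_mul _ _ (mem_univ e)]
    simp only [psi, prod_singleton, smul_eq_mul]
    ring
  refine (HasDerivAt.fun_sum fun x _ => h3 x).congr_deriv ?_
  rw [sum_comm]
  refine sum_congr rfl fun e _ => ?_
  have h4 := co_insert (p := p) (notMem_empty e) f
  rw [← mul_sum]
  simp only [co, psi, prod_empty, mul_one, insert_empty_eq] at h4
  simp only [psi]
  change (sg p)⁻¹ * Ex p (fun x => f x * ∏ i ∈ {e}, ps p (x i)) = _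
  rw [h4, inv_mul_cancel_left₀ hs.ne']

end Vale.Agent.P063
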